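import Vale.Agent.P227.Main

open MeasureTheory Vale.Agent.P227

theorem Vale.Agent.Results.P227.LogBM.result (n : ℕ) (hn : 2 ≤ n)
    (K L : Set (EuclideanSpace ℝ (Fin n))) (hK : IsSymmBody K) (hL : IsSymmBody L)
    (t : ℝ) (ht0 : 0 ≤ t) (ht1 : t ≤ 1) :
    volume K ^ (1 - t) * volume L ^ t
      ≤ volume (wulff fun u => supp K u ^ (1 - t) * supp L u ^ t) :=
  log_bm (by omega) hK hL ht0 ht1
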